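import Vale.Agent.P243.Main

open MeasureTheory Vale.Agent.P243
open scoped ENNReal

/-- Every finite covering of an origin-symmetric convex body `K` in Euclidean three-space by
cylinders has directionwise relative area at least `5 / 12`. A cylinder is given by an orthonormal
basis `v i, w i` of the plane orthogonal to its axis and a measurable base `B i` in the coordinates
of that basis, and it is the set of points whose orthogonal projection to the plane has coordinates
in `B i`; the projection of `K` to the plane, in the same coordinates, is `planeCoord (v i) (w i) '' K`. -/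
theorem Vale.Agent.Results.P243.SymmetricFiveTwelfths.result
    {K : Set (EuclideanSpace ℝ (Fin 3))} (hc : IsCompact K) (hconv : Convex ℝ K)
    (hint : (interior K).Nonempty) (hsymm : ∀ x ∈ K, -x ∈ K) {ι : Type*} [Fintype ι]
    (v w : ι → EuclideanSpace ℝ (Fin 3)) (hv : ∀ i, ‖v i‖ = 1) (hw : ∀ i, ‖w i‖ = 1)
    (hvw : ∀ i, inner ℝ (v i) (w i) = (0 : ℝ))
    (B : ι → Set (ℝ × ℝ)) (hB : ∀ i, MeasurableSet (B i))
    (hcov : K ⊆ ⋃ i, planeCoord (v i) (w i) ⁻¹' B i) :
    (5 / 12 : ℝ≥0∞) ≤ ∑ i, volume (B i) / volume (planeCoord (v i) (w i) '' K) :=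
  main_theorem hc hconv hint hsymm v w hv hw hvw B hB hcov
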