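import Vale.Agent.P243C.Final

open MeasureTheory Vale.Agent.P243
open scoped ENNReal

/-- There are a convex body `K` in Euclidean three-space (a tetrahedron) and a finite covering of
`K` by fourteen cylinders whose directionwise relative area is at most `133837 / 270000`, which is
less than `1 / 2`. A cylinder is given by an orthonormal basis `v i, w i` of the plane orthogonal to
its axis and a measurable base `B i` in the coordinates of that basis, and it is the set of points
whose orthogonal projection to the plane has coordinates in `B i`; the projection of `K` to the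
plane, in the same coordinates, is `planeCoord (v i) (w i) '' K`. -/
theorem Vale.Agent.Results.P243.TetrahedronCounterexample.result :
    ∃ K : Set (EuclideanSpace ℝ (Fin 3)), IsCompact K ∧ Convex ℝ K ∧ (interior K).Nonempty ∧
      ∃ (v w : Fin 14 → EuclideanSpace ℝ (Fin 3)) (B : Fin 14 → Set (ℝ × ℝ)),
        (∀ i, ‖v i‖ = 1) ∧ (∀ i, ‖w i‖ = 1) ∧ (∀ i, inner ℝ (v i) (w i) = (0 : ℝ)) ∧
        (∀ i, MeasurableSet (B i)) ∧ K ⊆ ⋃ i, planeCoord (v i) (w i) ⁻¹' B i ∧
        ∑ i, volume (B i) / volume (planeCoord (v i) (w i) '' K) ≤ (133837 / 270000 : ℝ≥0∞) ∧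
        (133837 / 270000 : ℝ≥0∞) < 1 / 2 := by
  obtain ⟨v, w, B, h1, h2, h3, h4, h5, h6⟩ := Vale.Agent.P243C.main
  have e : (133837 / 270000 : ℝ≥0∞) = ENNReal.ofReal (133837 / 270000) := by
    rw [ENNReal.ofReal_div_of_pos (by norm_num)]
    norm_num
  refine ⟨Vale.Agent.P243C.K, Vale.Agent.P243C.K_isCompact, Vale.Agent.P243C.K_convex,
    Vale.Agent.P243C.K_interior, v, w, B, h1, h2, h3, h4, h5, ?_, ?_⟩
  · rw [e]
    exact h6
  · have e2 : (1 / 2 : ℝ≥0∞) = ENNReal.ofReal (1 / 2) := by
      rw [ENNReal.ofReal_div_of_pos (by norm_num)]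
      norm_num
    rw [e, e2]
    exact (ENNReal.ofReal_lt_ofReal_iff (by norm_num)).mpr (by norm_num)
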