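import Vale.Agent.P243D.Final

open MeasureTheory Vale.Agent.P243
open scoped ENNReal

/-- There are a convex body `K` in Euclidean three-space (a tetrahedron) and a finite covering of
`K` by thirty-eight cylinders (with ten axis directions) whose directionwise relative area is at
most `660821 / 1382400 = 0.47802...`, which is less than `1 / 2`. A cylinder is given by an
orthonormal basis `v i, w i` of the plane orthogonal to its axis and a measurable base `B i` in the
coordinates of that basis, and it is the set of points whose orthogonal projection to the plane has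
coordinates in `B i`; the projection of `K` to the plane, in the same coordinates, is
`planeCoord (v i) (w i) '' K`. -/
theorem Vale.Agent.Results.P243.TetrahedronSharper.result :
    ∃ K : Set (EuclideanSpace ℝ (Fin 3)), IsCompact K ∧ Convex ℝ K ∧ (interior K).Nonempty ∧
      ∃ (v w : Fin 38 → EuclideanSpace ℝ (Fin 3)) (B : Fin 38 → Set (ℝ × ℝ)),
        (∀ i, ‖v i‖ = 1) ∧ (∀ i, ‖w i‖ = 1) ∧ (∀ i, inner ℝ (v i) (w i) = (0 : ℝ)) ∧
        (∀ i, MeasurableSet (B i)) ∧ K ⊆ ⋃ i, planeCoord (v i) (w i) ⁻¹' B i ∧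
        ∑ i, volume (B i) / volume (planeCoord (v i) (w i) '' K) ≤ (660821 / 1382400 : ℝ≥0∞) ∧
        (660821 / 1382400 : ℝ≥0∞) < 1 / 2 := by
  obtain ⟨v, w, B, h1, h2, h3, h4, h5, h6⟩ := Vale.Agent.P243D.main
  have e : (660821 / 1382400 : ℝ≥0∞) = ENNReal.ofReal (660821 / 1382400) := by
    rw [ENNReal.ofReal_div_of_pos (by norm_num)]
    norm_num
  refine ⟨Vale.Agent.P243C.K, Vale.Agent.P243C.K_isCompact, Vale.Agent.P243C.K_convex,
    Vale.Agent.P243C.K_interior, v, w, B, h1, h2, h3, h4, h5, ?_, ?_⟩
  · rw [e]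
    exact h6
  · have e2 : (1 / 2 : ℝ≥0∞) = ENNReal.ofReal (1 / 2) := by
      rw [ENNReal.ofReal_div_of_pos (by norm_num)]
      norm_num
    rw [e, e2]
    exact (ENNReal.ofReal_lt_ofReal_iff (by norm_num)).mpr (by norm_num)
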